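import Vale.Agent.Lib.P062.Win.Check

/-!
# Bit-level lemmas for the Snaky certificate checker
-/

namespace Vale.Agent.Lib.P062.Win

open Vale.Agent.Lib.P062

theorem frc_eq (x : ℕ) (k : ℕ → Res) : frc x k = k x := by
  cases x <;> rfl

theorem tb_eq_testBit (X c : ℕ) : tb X c = X.testBit (c + 64) := by
  unfold tb Nat.testBit
  show Nat.beq (1 &&& (X >>> (c + 64))) 1 = (1 &&& (X >>> (c + 64)) != 0)
  rw [Nat.one_and_eq_mod_two]
  rcases Nat.mod_two_eq_zero_or_one (X >>> (c + 64)) with h | h <;> rw [h] <;> rfl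

theorem cellOf_inj {c c' : ℕ} (h : c < 729) (h' : c' < 729) (e : cellOf c = cellOf c') :
    c = c' := by
  have _h1 := h
  have _h2 := h'
  unfold cellOf at e
  rw [Prod.mk.injEq] at e
  obtain ⟨e1, e2⟩ := e
  omega

theorem mem_setOf {X : ℕ} {p : ℤ × ℤ} :
    p ∈ setOf X ↔ ∃ c, c < 729 ∧ tb X c = true ∧ cellOf c = p := by
  unfold setOf
  rw [Finset.mem_image]
  constructor
  · rintro ⟨c, hc, h3⟩
    rw [Finset.mem_filter, Finset.mem_range] at hc
    exact ⟨c, hc.1, hc.2, h3⟩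
  · rintro ⟨c, h1, h2, h3⟩
    refine ⟨c, ?_, h3⟩
    rw [Finset.mem_filter, Finset.mem_range]
    exact ⟨h1, h2⟩

theorem cellOf_mem_setOf {X c : ℕ} (h : c < 729) : cellOf c ∈ setOf X ↔ tb X c = true := by
  rw [mem_setOf]
  constructor
  · rintro ⟨c', h1, h2, h3⟩
    have hcc := cellOf_inj h1 h h3
    rw [← hcc]
    exact h2
  · intro ht
    exact ⟨c, h, ht, rfl⟩

theorem tb_nm (y c : ℕ) : tb (nm y) c = tb y c := by
  rw [tb_eq_testBit, tb_eq_testBit]
  have h64 : (18446744073709551616 : ℕ) = 2 ^ 64 := by norm_num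
  have hr : (y / 2 ^ 64) % 18446744073709551557 < 2 ^ 64 :=
    lt_of_lt_of_le (Nat.mod_lt _ (by norm_num)) (by norm_num)
  have hnm : nm y = 2 ^ 64 * (y / 2 ^ 64) + (y / 2 ^ 64) % 18446744073709551557 := by
    unfold nm
    show y / 18446744073709551616 * 18446744073709551616
      + y / 18446744073709551616 % 18446744073709551557 = _
    rw [h64, Nat.mul_comm]
  rw [hnm, Nat.testBit_two_pow_mul_add _ hr, if_neg (by omega), Nat.add_sub_cancel,
    Nat.testBit_div_two_pow]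

theorem tb_lor (X Y c : ℕ) : tb (Nat.lor X Y) c = (tb X c || tb Y c) := by
  rw [tb_eq_testBit, tb_eq_testBit, tb_eq_testBit]
  exact Nat.testBit_or X Y (c + 64)

theorem tb_land (X Y c : ℕ) : tb (Nat.land X Y) c = (tb X c && tb Y c) := by
  rw [tb_eq_testBit, tb_eq_testBit, tb_eq_testBit]
  exact Nat.testBit_and X Y (c + 64)

theorem tb_xor (X Y c : ℕ) : tb (Nat.xor X Y) c = (tb X c != tb Y c) := by
  rw [tb_eq_testBit, tb_eq_testBit, tb_eq_testBit, Bool.bne_eq_xor]
  exact Nat.testBit_xor X Y (c + 64)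

theorem tb_pow (b c : ℕ) : tb (Nat.pow 2 (Nat.add b 64)) c = decide (c = b) := by
  rw [tb_eq_testBit]
  show (2 ^ (b + 64)).testBit (c + 64) = decide (c = b)
  rw [Nat.testBit_two_pow, decide_eq_decide]
  omega

theorem tb_ins (X b c : ℕ) : tb (ins X b) c = (tb X c || decide (c = b)) := by
  unfold ins
  rw [tb_nm, tb_lor, tb_pow]

theorem tb_zero (c : ℕ) : tb 0 c = false := by
  rw [tb_eq_testBit]
  exact Nat.zero_testBit _

theorem tb_of_small {U : ℕ} (h : Nat.ble U 18446744073709551615 = true) (c : ℕ) :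
    tb U c = false := by
  rw [tb_eq_testBit]
  apply Nat.testBit_lt_two_pow
  have h1 : U ≤ 18446744073709551615 := Nat.le_of_ble_eq_true h
  have h2 : (2 : ℕ) ^ 64 ≤ 2 ^ (c + 64) := Nat.pow_le_pow_right (by norm_num) (by omega)
  have h3 : (2 : ℕ) ^ 64 = 18446744073709551616 := by norm_num
  omega

theorem freeCell_iff {M B c : ℕ} :
    freeCell M B c = true ↔ c < 729 ∧ tb M c = false ∧ tb B c = false := by
  have key : Nat.beq (Nat.land 1 (Nat.shiftRight (Nat.lor M B) (Nat.add c 64))) 0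
      = !(tb (Nat.lor M B) c) := by
    unfold tb
    have h2 : Nat.land 1 (Nat.shiftRight (Nat.lor M B) (Nat.add c 64))
        = Nat.shiftRight (Nat.lor M B) (Nat.add c 64) % 2 := Nat.one_and_eq_mod_two _
    rw [h2]
    rcases Nat.mod_two_eq_zero_or_one (Nat.shiftRight (Nat.lor M B) (Nat.add c 64)) with h | h <;>
      rw [h] <;> rfl
  unfold freeCell
  rw [key, tb_lor, Bool.and_eq_true, Nat.ble_eq]
  constructor
  · rintro ⟨h1, h2⟩
    refine ⟨by omega, ?_⟩
    cases hM : tb M c <;> cases hB : tb B c <;> rw [hM, hB] at h2 <;> simp at h2 ⊢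
  · rintro ⟨h1, h2, h3⟩
    refine ⟨by omega, ?_⟩
    rw [h2, h3]
    rfl

end Vale.Agent.Lib.P062.Win
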