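import Vale.Agent.Lib.P062.Win.Game

/-!
# From a forced win of Maker to the non-existence of a Breaker strategy
-/

namespace Vale.Agent.Lib.P062.Win

open Vale.Agent.Lib.P062

/-- Against a legal Breaker strategy, a position reached by a legal play from which Maker can
force a win leads to a legal play in which Maker owns an allowed copy of Snaky. -/
theorem bridge_key (s : List (ℤ × ℤ) → ℤ × ℤ)
    (hs_legal : LegalStrategy (Set.univ : Set (ℤ × ℤ)) s) :
    ∀ (n : ℕ) (hs : List (ℤ × ℤ)), LegalPlay (Set.univ : Set (ℤ × ℤ)) s hs →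
      MakerWinsIn n hs.toFinset (replies s hs).toFinset →
      ∃ (hs' : List (ℤ × ℤ)) (A : Finset (ℤ × ℤ)),
        LegalPlay (Set.univ : Set (ℤ × ℤ)) s hs' ∧ IsSnakyCopy A ∧ A ⊆ hs'.toFinset := by
  intro n
  induction n with
  | zero =>
    intro hs _ h
    unfold MakerWinsIn at h
    exact False.elim h
  | succ n ih =>
    intro hs hlegal h
    unfold MakerWinsIn at h
    obtain ⟨m, hmM, hmB, hcase⟩ := h
    have hm1 : m ∉ hs := fun hmem => hmM (List.mem_toFinset.mpr hmem)
    have hm2 : m ∉ replies s hs := fun hmem => hmB (List.mem_toFinset.mpr hmem)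
    have hlegal' : LegalPlay (Set.univ : Set (ℤ × ℤ)) s (m :: hs) :=
      ⟨hlegal, Set.mem_univ m, hm1, hm2⟩
    rcases hcase with ⟨C, hC, hsub⟩ | hall
    · refine ⟨m :: hs, C, hlegal', hC, ?_⟩
      rw [List.toFinset_cons]
      exact hsub
    · rcases hs_legal m hs hlegal' with ⟨-, hb1, hb2⟩ | hfull
      · have hb1' : s (m :: hs) ∉ insert m hs.toFinset := by
          intro hmem
          rw [← List.toFinset_cons, List.mem_toFinset] at hmem
          exact hb1 hmem
        have hb2' : s (m :: hs) ∉ (replies s hs).toFinset :=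
          fun hmem => hb2 (List.mem_toFinset.mp hmem)
        have h2 := hall (s (m :: hs)) hb1' hb2'
        apply ih (m :: hs) hlegal'
        have hrep : replies s (m :: hs) = s (m :: hs) :: replies s hs := rfl
        rw [List.toFinset_cons, hrep, List.toFinset_cons]
        exact h2
      · exfalso
        obtain ⟨x, hx⟩ := Infinite.exists_notMem_finset
          ((m :: hs).toFinset ∪ (replies s hs).toFinset)
        rcases hfull x (Set.mem_univ x) with h1 | h1
        · exact hx (Finset.mem_union_left _ (List.mem_toFinset.mpr h1))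
        · exact hx (Finset.mem_union_right _ (List.mem_toFinset.mpr h1))

/-- If Maker can force a win from the empty board of `ℤ × ℤ` within `n` moves, then Breaker has no
strategy preventing Maker from ever completing an allowed copy of Snaky. -/
theorem not_breakerWins_of_makerWinsIn {n : ℕ} (h : MakerWinsIn n ∅ ∅) :
    ¬ BreakerWins (Set.univ : Set (ℤ × ℤ)) {A | IsSnakyCopy A} := by
  rintro ⟨s, hs_legal, hwin⟩
  have h0 : MakerWinsIn n ([] : List (ℤ × ℤ)).toFinset (replies s []).toFinset := by
    have hrep : replies s ([] : List (ℤ × ℤ)) = [] := rfl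
    rw [hrep, List.toFinset_nil]
    exact h
  obtain ⟨hs', A, hlegal, hA, hsub⟩ := bridge_key s hs_legal n [] trivial h0
  exact hwin hs' hlegal A hA hsub

end Vale.Agent.Lib.P062.Win
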