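import Vale.Agent.Lib.P062.Defs

/-!
# The Snaky achievement game on the square grid: Maker's forced wins

The game is the one of `Vale.Agent.Lib.P062.Defs`: the board is `ℤ × ℤ`, the winning sets are the
allowed copies `IsSnakyCopy` of Snaky (translations composed with the eight signed permutations).
-/

namespace Vale.Agent.Lib.P062

/-- `MakerWinsIn n M B`: in the position where Maker owns the cells `M`, Breaker owns the cells `B`
and Maker is to move, Maker can force a win within `n` of its own moves: Maker has a legal move `m`
(an unclaimed cell) after which either Maker owns all cells of an allowed copy of Snaky, or, for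
every legal reply `b` of Breaker (any unclaimed cell of the infinite board), Maker can force a win
within `n - 1` further moves. -/
def MakerWinsIn : ℕ → Finset (ℤ × ℤ) → Finset (ℤ × ℤ) → Prop
  | 0, _, _ => False
  | n + 1, M, B => ∃ m, m ∉ M ∧ m ∉ B ∧
      ((∃ C, IsSnakyCopy C ∧ C ⊆ insert m M) ∨
        ∀ b, b ∉ insert m M → b ∉ B → MakerWinsIn n (insert m M) (insert b B))

end Vale.Agent.Lib.P062
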