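import Vale.Agent.Lib.P062.Win.Game

/-!
# Symmetry and monotonicity of Maker's forced wins in the Snaky game
-/

namespace Vale.Agent.Lib.P062.Win

open Vale.Agent.Lib.P062

/-- The signed permutation with signs `a`, `b` that swaps the two coordinates first when `sw`. -/
def sg (sw : Bool) (a b : ℤ) (p : ℤ × ℤ) : ℤ × ℤ :=
  match sw with
  | false => (a * p.1, b * p.2)
  | true => (a * p.2, b * p.1)

/-- A forced win within `n` moves is a forced win within more moves. -/
theorem makerWinsIn_mono {n n' : ℕ} (hn : n ≤ n') {M B : Finset (ℤ × ℤ)}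
    (h : MakerWinsIn n M B) : MakerWinsIn n' M B := by
  induction n generalizing n' M B with
  | zero =>
    rw [MakerWinsIn] at h
    exact absurd h not_false
  | succ n ih =>
    obtain ⟨k, rfl⟩ : ∃ k, n' = k + 1 := ⟨n' - 1, by omega⟩
    rw [MakerWinsIn] at h ⊢
    obtain ⟨m, hmM, hmB, h⟩ := h
    refine ⟨m, hmM, hmB, ?_⟩
    rcases h with h | h
    · exact Or.inl h
    · exact Or.inr (fun b hb hb' => ih (by omega) (h b hb hb'))

/-- A product of two signs is a sign. -/
theorem symm_sign_mul {a b : ℤ} (ha : a = 1 ∨ a = -1) (hb : b = 1 ∨ b = -1) :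
    a * b = 1 ∨ a * b = -1 := by
  rcases ha with rfl | rfl <;> rcases hb with rfl | rfl <;> simp

/-- The square of a sign is one. -/
theorem symm_sign_sq {a : ℤ} (ha : a = 1 ∨ a = -1) (x : ℤ) : a * (a * x) = x := by
  rcases ha with rfl | rfl <;> simp

/-- The inverse of a signed permutation. -/
def symm_inv (sw : Bool) (a b : ℤ) (p : ℤ × ℤ) : ℤ × ℤ :=
  match sw with
  | false => sg false a b p
  | true => sg true b a p

theorem symm_inv_sg (sw : Bool) {a b : ℤ} (ha : a = 1 ∨ a = -1) (hb : b = 1 ∨ b = -1)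
    (p : ℤ × ℤ) : symm_inv sw a b (sg sw a b p) = p := by
  obtain ⟨x, y⟩ := p
  cases sw
  · simp only [symm_inv, sg]
    rw [symm_sign_sq ha, symm_sign_sq hb]
  · simp only [symm_inv, sg]
    rw [symm_sign_sq ha, symm_sign_sq hb]

theorem symm_sg_inv (sw : Bool) {a b : ℤ} (ha : a = 1 ∨ a = -1) (hb : b = 1 ∨ b = -1)
    (p : ℤ × ℤ) : sg sw a b (symm_inv sw a b p) = p := by
  obtain ⟨x, y⟩ := p
  cases sw
  · simp only [symm_inv, sg]
    rw [symm_sign_sq ha, symm_sign_sq hb]
  · simp only [symm_inv, sg]
    rw [symm_sign_sq ha, symm_sign_sq hb]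

/-- The inverse of a signed permutation is a signed permutation. -/
theorem symm_inv_eq_sg (sw : Bool) (a b : ℤ) :
    ∃ a' b' : ℤ, ((a = 1 ∨ a = -1) → (b = 1 ∨ b = -1) → (a' = 1 ∨ a' = -1) ∧ (b' = 1 ∨ b' = -1)) ∧
      symm_inv sw a b = sg sw a' b' := by
  cases sw
  · exact ⟨a, b, fun ha hb => ⟨ha, hb⟩, rfl⟩
  · exact ⟨b, a, fun ha hb => ⟨hb, ha⟩, rfl⟩

/-- Signed permutations map allowed copies to allowed copies. -/
theorem symm_copy (sw : Bool) {a b : ℤ} (ha : a = 1 ∨ a = -1) (hb : b = 1 ∨ b = -1)
    {C : Finset (ℤ × ℤ)} (hC : IsSnakyCopy C) : IsSnakyCopy (C.image (sg sw a b)) := by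
  obtain ⟨a', b', ha', hb', t, hC | hC⟩ := hC
  · cases sw
    · refine ⟨a * a', b * b', symm_sign_mul ha ha', symm_sign_mul hb hb', (a * t.1, b * t.2),
        Or.inl ?_⟩
      rw [hC, Finset.image_image]
      congr 1
      funext p
      simp only [Function.comp_apply, sg]
      exact Prod.ext (by ring) (by ring)
    · refine ⟨a * b', b * a', symm_sign_mul ha hb', symm_sign_mul hb ha', (a * t.2, b * t.1),
        Or.inr ?_⟩
      rw [hC, Finset.image_image]
      congr 1
      funext p
      simp only [Function.comp_apply, sg]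
      exact Prod.ext (by ring) (by ring)
  · cases sw
    · refine ⟨a * a', b * b', symm_sign_mul ha ha', symm_sign_mul hb hb', (a * t.1, b * t.2),
        Or.inr ?_⟩
      rw [hC, Finset.image_image]
      congr 1
      funext p
      simp only [Function.comp_apply, sg]
      exact Prod.ext (by ring) (by ring)
    · refine ⟨a * b', b * a', symm_sign_mul ha hb', symm_sign_mul hb ha', (a * t.2, b * t.1),
        Or.inl ?_⟩
      rw [hC, Finset.image_image]
      congr 1
      funext p
      simp only [Function.comp_apply, sg]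
      exact Prod.ext (by ring) (by ring)

/-- Forced wins are transported by bijections of the board that preserve allowed copies. -/
theorem symm_transport (f : ℤ × ℤ → ℤ × ℤ) (hinj : Function.Injective f)
    (hsurj : Function.Surjective f)
    (hcopy : ∀ C : Finset (ℤ × ℤ), IsSnakyCopy C → IsSnakyCopy (C.image f)) :
    ∀ (n : ℕ) (M B : Finset (ℤ × ℤ)), MakerWinsIn n M B →
      MakerWinsIn n (M.image f) (B.image f) := by
  intro n
  induction n with
  | zero =>
    intro M B h
    rw [MakerWinsIn] at h
    exact absurd h not_false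
  | succ n ih =>
    intro M B h
    rw [MakerWinsIn] at h ⊢
    obtain ⟨m, hmM, hmB, h⟩ := h
    have hnot : ∀ (S : Finset (ℤ × ℤ)) (x : ℤ × ℤ), x ∉ S → f x ∉ S.image f := by
      intro S x hx hfx
      obtain ⟨y, hy, hyx⟩ := Finset.mem_image.mp hfx
      exact hx (hinj hyx ▸ hy)
    refine ⟨f m, hnot M m hmM, hnot B m hmB, ?_⟩
    rcases h with ⟨C, hC, hCsub⟩ | h
    · left
      refine ⟨C.image f, hcopy C hC, ?_⟩
      rw [← Finset.image_insert]
      exact Finset.image_subset_image hCsub
    · right
      intro b' hb'M hb'B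
      obtain ⟨b, rfl⟩ := hsurj b'
      rw [← Finset.image_insert] at hb'M
      have hbM : b ∉ insert m M := fun hb => hb'M (Finset.mem_image_of_mem f hb)
      have hbB : b ∉ B := fun hb => hb'B (Finset.mem_image_of_mem f hb)
      have h1 := ih (insert m M) (insert b B) (h b hbM hbB)
      rw [Finset.image_insert, Finset.image_insert] at h1
      exact h1

/-- Forced wins are transported by signed permutations. -/
theorem symm_forward (sw : Bool) {a b : ℤ} (ha : a = 1 ∨ a = -1) (hb : b = 1 ∨ b = -1)
    (n : ℕ) (M B : Finset (ℤ × ℤ)) (h : MakerWinsIn n M B) :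
    MakerWinsIn n (M.image (sg sw a b)) (B.image (sg sw a b)) :=
  symm_transport (sg sw a b)
    (Function.LeftInverse.injective (symm_inv_sg sw ha hb))
    (Function.RightInverse.surjective (symm_sg_inv sw ha hb))
    (fun _ hC => symm_copy sw ha hb hC) n M B h

/-- Forced wins are invariant under the eight signed permutations. -/
theorem makerWinsIn_sg (sw : Bool) {a b : ℤ} (ha : a = 1 ∨ a = -1) (hb : b = 1 ∨ b = -1)
    (n : ℕ) (M B : Finset (ℤ × ℤ)) :
    MakerWinsIn n (M.image (sg sw a b)) (B.image (sg sw a b)) ↔ MakerWinsIn n M B := by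
  constructor
  · intro h
    obtain ⟨a', b', hab, hinv⟩ := symm_inv_eq_sg sw a b
    obtain ⟨ha', hb'⟩ := hab ha hb
    have h1 := symm_forward sw ha' hb' n _ _ h
    rw [← hinv, Finset.image_image, Finset.image_image] at h1
    have hid : symm_inv sw a b ∘ sg sw a b = id := by
      funext p
      exact symm_inv_sg sw ha hb p
    rw [hid, Finset.image_id, Finset.image_id] at h1
    exact h1
  · exact symm_forward sw ha hb n M B

end Vale.Agent.Lib.P062.Win
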