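import Vale.Agent.Lib.P062.Win.Bits

/-!
# Soundness of the threat test of the Snaky certificate checker
-/

namespace Vale.Agent.Lib.P062.Win

open Vale.Agent.Lib.P062

/-- A bit of the shifted shape forces the corresponding cell into `M` or onto `t`. -/
theorem thr_bit {M S a t k : ℕ}
    (h : Nat.land (Nat.shiftLeft S (Nat.add a 64)) (Nat.lor M (Nat.pow 2 (Nat.add t 64)))
      = Nat.shiftLeft S (Nat.add a 64))
    (hk : S.testBit k = true) : tb M (a + k) = true ∨ a + k = t := by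
  have e1 : (Nat.shiftLeft S (Nat.add a 64)).testBit (a + k + 64) = true := by
    show (S <<< (a + 64)).testBit (a + k + 64) = true
    rw [Nat.testBit_shiftLeft]
    have e2 : a + k + 64 - (a + 64) = k := by omega
    rw [e2, hk]
    simp
  have h2 : ((Nat.shiftLeft S (Nat.add a 64)) &&& (Nat.lor M (Nat.pow 2 (Nat.add t 64)))).testBit
      (a + k + 64) = (Nat.shiftLeft S (Nat.add a 64)).testBit (a + k + 64) :=
    congrArg (fun X => Nat.testBit X (a + k + 64)) h
  rw [Nat.testBit_and, e1] at h2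
  simp only [Bool.true_and] at h2
  rw [← tb_eq_testBit, tb_lor, tb_pow] at h2
  simpa using h2

/-- The cell with code `a + k` lies in Maker's cells together with `t`. -/
theorem thr_cell {M a t k : ℕ} (hk : a + k < 729) (h : tb M (a + k) = true ∨ a + k = t) :
    cellOf (a + k) ∈ insert (cellOf t) (setOf M) := by
  rcases h with h | h
  · exact Finset.mem_insert_of_mem ((cellOf_mem_setOf hk).2 h)
  · rw [h]; exact Finset.mem_insert_self _ _

/-- Adding an offset without wrap-around translates the cell. -/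
theorem thr_cellOf_add {a dx dy : ℕ} (h : a % 27 + dx ≤ 26) :
    cellOf (a + (dx + 27 * dy)) = ((cellOf a).1 + (dx : ℤ), (cellOf a).2 + (dy : ℤ)) := by
  unfold cellOf
  have h1 : (a + (dx + 27 * dy)) % 27 = a % 27 + dx := by omega
  have h2 : (a + (dx + 27 * dy)) / 27 = a / 27 + dy := by omega
  rw [h1, h2]
  push_cast
  ext <;> simp <;> ring

/-- Membership of one translated cell. -/
theorem thr_mem {M S a t : ℕ}
    (h : Nat.land (Nat.shiftLeft S (Nat.add a 64)) (Nat.lor M (Nat.pow 2 (Nat.add t 64)))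
      = Nat.shiftLeft S (Nat.add a 64))
    (dx dy : ℕ) (hk : S.testBit (dx + 27 * dy) = true) (hx : a % 27 + dx ≤ 26)
    (hy : a + (dx + 27 * dy) < 729) :
    ((cellOf a).1 + (dx : ℤ), (cellOf a).2 + (dy : ℤ)) ∈ insert (cellOf t) (setOf M) := by
  rw [← thr_cellOf_add hx]
  exact thr_cell hy (thr_bit h hk)

/-- Bounds on the cells of Snaky. -/
theorem thr_snaky_bd {p : ℤ × ℤ} (hp : p ∈ snaky) : (0 ≤ p.1 ∧ p.1 ≤ 4) ∧ (0 ≤ p.2 ∧ p.2 ≤ 1) := by
  simp only [snaky, Finset.mem_insert, Finset.mem_singleton] at hp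
  rcases hp with rfl | rfl | rfl | rfl | rfl | rfl <;> simp

/-- Horizontal orientations. -/
theorem thr_horiz {M S a t : ℕ}
    (h : Nat.land (Nat.shiftLeft S (Nat.add a 64)) (Nat.lor M (Nat.pow 2 (Nat.add t 64)))
      = Nat.shiftLeft S (Nat.add a 64))
    (ha : a % 27 ≤ 22) (ha' : a ≤ 701) (sx sy : ℤ) (x0 y0 : ℕ)
    (hs : (sx = 1 ∧ x0 = 0) ∨ (sx = -1 ∧ x0 = 4)) (ht : (sy = 1 ∧ y0 = 0) ∨ (sy = -1 ∧ y0 = 1))
    (hb : ∀ p ∈ snaky, ∃ dx dy : ℕ, ((x0 : ℤ) + sx * p.1 = dx) ∧ ((y0 : ℤ) + sy * p.2 = dy) ∧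
      S.testBit (dx + 27 * dy) = true) :
    ∃ C, IsSnakyCopy C ∧ C ⊆ insert (cellOf t) (setOf M) := by
  refine ⟨snaky.image (fun p => (((cellOf a).1 + (x0 : ℤ)) + sx * p.1,
    ((cellOf a).2 + (y0 : ℤ)) + sy * p.2)),
    ⟨sx, sy, ?_, ?_, ((cellOf a).1 + (x0 : ℤ), (cellOf a).2 + (y0 : ℤ)), Or.inl rfl⟩, ?_⟩
  · rcases hs with hs | hs
    · exact Or.inl hs.1
    · exact Or.inr hs.1
  · rcases ht with ht | ht
    · exact Or.inl ht.1
    · exact Or.inr ht.1
  · intro q hq
    rw [Finset.mem_image] at hq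
    obtain ⟨p, hp, rfl⟩ := hq
    obtain ⟨dx, dy, e1, e2, hk⟩ := hb p hp
    have hp' := thr_snaky_bd hp
    have hdx : dx ≤ 4 := by
      rcases hs with ⟨rfl, rfl⟩ | ⟨rfl, rfl⟩ <;> omega
    have hdy : dy ≤ 1 := by
      rcases ht with ⟨rfl, rfl⟩ | ⟨rfl, rfl⟩ <;> omega
    have := thr_mem h dx dy hk (by omega) (by omega)
    have e : ((cellOf a).1 + (x0 : ℤ) + sx * p.1, (cellOf a).2 + (y0 : ℤ) + sy * p.2)
        = ((cellOf a).1 + (dx : ℤ), (cellOf a).2 + (dy : ℤ)) := by
      rw [← e1, ← e2]; ext <;> simp <;> ring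
    rw [e]
    exact this

/-- Vertical orientations. -/
theorem thr_vert {M S a t : ℕ}
    (h : Nat.land (Nat.shiftLeft S (Nat.add a 64)) (Nat.lor M (Nat.pow 2 (Nat.add t 64)))
      = Nat.shiftLeft S (Nat.add a 64))
    (ha : a % 27 ≤ 25) (ha' : a ≤ 620) (sx sy : ℤ) (x0 y0 : ℕ)
    (hs : (sx = 1 ∧ x0 = 0) ∨ (sx = -1 ∧ x0 = 1)) (ht : (sy = 1 ∧ y0 = 0) ∨ (sy = -1 ∧ y0 = 4))
    (hb : ∀ p ∈ snaky, ∃ dx dy : ℕ, ((x0 : ℤ) + sx * p.2 = dx) ∧ ((y0 : ℤ) + sy * p.1 = dy) ∧
      S.testBit (dx + 27 * dy) = true) :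
    ∃ C, IsSnakyCopy C ∧ C ⊆ insert (cellOf t) (setOf M) := by
  refine ⟨snaky.image (fun p => (((cellOf a).1 + (x0 : ℤ)) + sx * p.2,
    ((cellOf a).2 + (y0 : ℤ)) + sy * p.1)),
    ⟨sx, sy, ?_, ?_, ((cellOf a).1 + (x0 : ℤ), (cellOf a).2 + (y0 : ℤ)), Or.inr rfl⟩, ?_⟩
  · rcases hs with hs | hs
    · exact Or.inl hs.1
    · exact Or.inr hs.1
  · rcases ht with ht | ht
    · exact Or.inl ht.1
    · exact Or.inr ht.1
  · intro q hq
    rw [Finset.mem_image] at hq
    obtain ⟨p, hp, rfl⟩ := hq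
    obtain ⟨dx, dy, e1, e2, hk⟩ := hb p hp
    have hp' := thr_snaky_bd hp
    have hdx : dx ≤ 1 := by
      rcases hs with ⟨rfl, rfl⟩ | ⟨rfl, rfl⟩ <;> omega
    have hdy : dy ≤ 4 := by
      rcases ht with ⟨rfl, rfl⟩ | ⟨rfl, rfl⟩ <;> omega
    have := thr_mem h dx dy hk (by omega) (by omega)
    have e : ((cellOf a).1 + (x0 : ℤ) + sx * p.2, (cellOf a).2 + (y0 : ℤ) + sy * p.1)
        = ((cellOf a).1 + (dx : ℤ), (cellOf a).2 + (dy : ℤ)) := by
      rw [← e1, ← e2]; ext <;> simp <;> ring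
    rw [e]
    exact this

/-- If the threat test succeeds, then some allowed copy of Snaky lies in Maker's cells together
with the cell `t`. -/
theorem thr_sound {M o a t : ℕ} (h : thr M o a t = true) :
    ∃ C, IsSnakyCopy C ∧ C ⊆ insert (cellOf t) (setOf M) := by
  unfold thr at h
  rw [Bool.and_eq_true] at h
  obtain ⟨hv, hl⟩ := h
  have hl' := Nat.eq_of_beq_eq_true hl
  unfold validCopy at hv
  by_cases ho : o ≤ 3
  · have e : Nat.ble o 3 = true := Nat.ble_eq_true_of_le ho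
    rw [e] at hv
    simp only [Bool.and_eq_true] at hv
    have h1 : a % 27 ≤ 22 := Nat.le_of_ble_eq_true hv.1
    have h2 : a ≤ 701 := Nat.le_of_ble_eq_true hv.2
    interval_cases o
    · refine thr_horiz hl' h1 h2 1 1 0 0 (Or.inl ⟨rfl, rfl⟩) (Or.inl ⟨rfl, rfl⟩) ?_
      intro p hp
      simp only [snaky, Finset.mem_insert, Finset.mem_singleton] at hp
      rcases hp with rfl | rfl | rfl | rfl | rfl | rfl
      · exact ⟨0, 0, by norm_num, by norm_num, by decide⟩
      · exact ⟨1, 0, by norm_num, by norm_num, by decide⟩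
      · exact ⟨2, 0, by norm_num, by norm_num, by decide⟩
      · exact ⟨3, 0, by norm_num, by norm_num, by decide⟩
      · exact ⟨3, 1, by norm_num, by norm_num, by decide⟩
      · exact ⟨4, 1, by norm_num, by norm_num, by decide⟩
    · refine thr_horiz hl' h1 h2 (-1) 1 4 0 (Or.inr ⟨rfl, rfl⟩) (Or.inl ⟨rfl, rfl⟩) ?_
      intro p hp
      simp only [snaky, Finset.mem_insert, Finset.mem_singleton] at hp
      rcases hp with rfl | rfl | rfl | rfl | rfl | rfl
      · exact ⟨4, 0, by norm_num, by norm_num, by decide⟩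
      · exact ⟨3, 0, by norm_num, by norm_num, by decide⟩
      · exact ⟨2, 0, by norm_num, by norm_num, by decide⟩
      · exact ⟨1, 0, by norm_num, by norm_num, by decide⟩
      · exact ⟨1, 1, by norm_num, by norm_num, by decide⟩
      · exact ⟨0, 1, by norm_num, by norm_num, by decide⟩
    · refine thr_horiz hl' h1 h2 1 (-1) 0 1 (Or.inl ⟨rfl, rfl⟩) (Or.inr ⟨rfl, rfl⟩) ?_
      intro p hp
      simp only [snaky, Finset.mem_insert, Finset.mem_singleton] at hp
      rcases hp with rfl | rfl | rfl | rfl | rfl | rfl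
      · exact ⟨0, 1, by norm_num, by norm_num, by decide⟩
      · exact ⟨1, 1, by norm_num, by norm_num, by decide⟩
      · exact ⟨2, 1, by norm_num, by norm_num, by decide⟩
      · exact ⟨3, 1, by norm_num, by norm_num, by decide⟩
      · exact ⟨3, 0, by norm_num, by norm_num, by decide⟩
      · exact ⟨4, 0, by norm_num, by norm_num, by decide⟩
    · refine thr_horiz hl' h1 h2 (-1) (-1) 4 1 (Or.inr ⟨rfl, rfl⟩) (Or.inr ⟨rfl, rfl⟩) ?_
      intro p hp
      simp only [snaky, Finset.mem_insert, Finset.mem_singleton] at hp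
      rcases hp with rfl | rfl | rfl | rfl | rfl | rfl
      · exact ⟨4, 1, by norm_num, by norm_num, by decide⟩
      · exact ⟨3, 1, by norm_num, by norm_num, by decide⟩
      · exact ⟨2, 1, by norm_num, by norm_num, by decide⟩
      · exact ⟨1, 1, by norm_num, by norm_num, by decide⟩
      · exact ⟨1, 0, by norm_num, by norm_num, by decide⟩
      · exact ⟨0, 0, by norm_num, by norm_num, by decide⟩
  · have e : Nat.ble o 3 = false := by
      rw [← Bool.not_eq_true]
      intro h3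
      exact ho (Nat.le_of_ble_eq_true h3)
    rw [e] at hv
    simp only [Bool.and_eq_true] at hv
    have h0 : o ≤ 7 := Nat.le_of_ble_eq_true hv.1.1
    have h1 : a % 27 ≤ 25 := Nat.le_of_ble_eq_true hv.1.2
    have h2 : a ≤ 620 := Nat.le_of_ble_eq_true hv.2
    have h4 : 4 ≤ o := by omega
    interval_cases o
    · refine thr_vert hl' h1 h2 1 1 0 0 (Or.inl ⟨rfl, rfl⟩) (Or.inl ⟨rfl, rfl⟩) ?_
      intro p hp
      simp only [snaky, Finset.mem_insert, Finset.mem_singleton] at hp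
      rcases hp with rfl | rfl | rfl | rfl | rfl | rfl
      · exact ⟨0, 0, by norm_num, by norm_num, by decide⟩
      · exact ⟨0, 1, by norm_num, by norm_num, by decide⟩
      · exact ⟨0, 2, by norm_num, by norm_num, by decide⟩
      · exact ⟨0, 3, by norm_num, by norm_num, by decide⟩
      · exact ⟨1, 3, by norm_num, by norm_num, by decide⟩
      · exact ⟨1, 4, by norm_num, by norm_num, by decide⟩
    · refine thr_vert hl' h1 h2 (-1) 1 1 0 (Or.inr ⟨rfl, rfl⟩) (Or.inl ⟨rfl, rfl⟩) ?_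
      intro p hp
      simp only [snaky, Finset.mem_insert, Finset.mem_singleton] at hp
      rcases hp with rfl | rfl | rfl | rfl | rfl | rfl
      · exact ⟨1, 0, by norm_num, by norm_num, by decide⟩
      · exact ⟨1, 1, by norm_num, by norm_num, by decide⟩
      · exact ⟨1, 2, by norm_num, by norm_num, by decide⟩
      · exact ⟨1, 3, by norm_num, by norm_num, by decide⟩
      · exact ⟨0, 3, by norm_num, by norm_num, by decide⟩
      · exact ⟨0, 4, by norm_num, by norm_num, by decide⟩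
    · refine thr_vert hl' h1 h2 1 (-1) 0 4 (Or.inl ⟨rfl, rfl⟩) (Or.inr ⟨rfl, rfl⟩) ?_
      intro p hp
      simp only [snaky, Finset.mem_insert, Finset.mem_singleton] at hp
      rcases hp with rfl | rfl | rfl | rfl | rfl | rfl
      · exact ⟨0, 4, by norm_num, by norm_num, by decide⟩
      · exact ⟨0, 3, by norm_num, by norm_num, by decide⟩
      · exact ⟨0, 2, by norm_num, by norm_num, by decide⟩
      · exact ⟨0, 1, by norm_num, by norm_num, by decide⟩
      · exact ⟨1, 1, by norm_num, by norm_num, by decide⟩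
      · exact ⟨1, 0, by norm_num, by norm_num, by decide⟩
    · refine thr_vert hl' h1 h2 (-1) (-1) 1 4 (Or.inr ⟨rfl, rfl⟩) (Or.inr ⟨rfl, rfl⟩) ?_
      intro p hp
      simp only [snaky, Finset.mem_insert, Finset.mem_singleton] at hp
      rcases hp with rfl | rfl | rfl | rfl | rfl | rfl
      · exact ⟨1, 4, by norm_num, by norm_num, by decide⟩
      · exact ⟨1, 3, by norm_num, by norm_num, by decide⟩
      · exact ⟨1, 2, by norm_num, by norm_num, by decide⟩
      · exact ⟨1, 1, by norm_num, by norm_num, by decide⟩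
      · exact ⟨0, 1, by norm_num, by norm_num, by decide⟩
      · exact ⟨0, 0, by norm_num, by norm_num, by decide⟩

end Vale.Agent.Lib.P062.Win
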